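import Vale.Agent.P347.KFinal

/-!
# P347: `Q(d) ≤ C d^{1/6} (log d)^m`, hence the dimension exponent is at most `1/6`
-/

open MeasureTheory ProbabilityTheory

namespace Vale.Agent.Results.P347.SixthRoot

open Vale.Agent.P347

theorem result :
    (∃ (C : ℝ) (m d₀ : ℕ), ∀ d : ℕ, d₀ ≤ d →
      ∃ q : ℕ, (q : ℝ) ≤ C * (d : ℝ) ^ ((1 : ℝ) / 6) * Real.log d ^ m ∧
        ∃ A : Alg d q, A.Samples) ∧
    gammaStar ≤ (((1 : ℝ) / 6 : ℝ) : EReal) := by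
  refine ⟨exists_alg_sixth, ?_⟩
  obtain ⟨C, m, d₀, h⟩ := exists_alg_sixth
  exact gammaStar_le_of_polylog (C := C) (k := m) (d₀ := d₀) h

end Vale.Agent.Results.P347.SixthRoot
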